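import Vale.Agent.P088.H198.E.Defs
import Vale.Agent.P088.H833.RecC

/-!
# P088, row E_REC: formal series of all orders, bounded data
-/

open MeasureTheory Set Filter
open scoped ContDiff Matrix Topology

noncomputable section

namespace Vale.Agent.P088.H833.RE

open Vale.Agent.P088.LR Vale.Agent.P088.LR.B Vale.Agent.P088.LR.CF Vale.Agent.P088.H833
  Vale.Agent.P088.H833.RC

variable {n : ℕ}

open Vale.Agent.P088.LR.E (Cb)

theorem cb_mono {B : ℕ → ℝ} {m m' : ℕ} {f : V n → ℝ} (h : Cb m' B f) (hm : m ≤ m') : Cb m B f :=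
  fun l hl x => h l (hl.trans hm) x

theorem cb_cl {B : ℕ → ℝ} {k : ℕ} {f : V n → ℝ} (h : Cb k B f) :
    Cl k (∑ l ∈ Finset.range (k + 1), |B l|) f := fun l hl x =>
  (h l hl x).trans ((le_abs_self _).trans
    (Finset.single_le_sum (f := fun l => |B l|) (fun _ _ => abs_nonneg _)
      (Finset.mem_range.2 (by omega))))

/-- Bounded coercive data of order `m`. -/
def Ab (B : ℕ → ℝ) (μ : ℝ) (m : ℕ) (t : Tr n) : Prop :=
  (∀ i j, Cb m B (fun x => t.s x i j)) ∧ Cb m B t.f ∧ Cb m B t.g ∧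
    ∀ x, ∀ v : V n, μ * ∑ i, v i ^ 2 ≤ ∑ i, ∑ j, t.s x i j * v i * v j

theorem Ab.mono {B : ℕ → ℝ} {μ : ℝ} {m m' : ℕ} (h : m ≤ m') {t : Tr n} (ht : Ab B μ m' t) :
    Ab B μ m t :=
  ⟨fun i j => cb_mono (ht.1 i j) h, cb_mono ht.2.1 h, cb_mono ht.2.2.1 h, ht.2.2.2⟩

/-- The filter. -/
def Fb (n : ℕ) (B : ℕ → ℝ) (μ : ℝ) : Filter (Tr n) where
  sets := {S | ∃ m : ℕ, ∀ t, Ab B μ m t → t ∈ S}
  univ_sets := ⟨0, fun _ _ => mem_univ _⟩
  sets_of_superset := fun ⟨m, h⟩ hST => ⟨m, fun s hs => hST (h s hs)⟩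
  inter_sets := fun ⟨m, h⟩ ⟨m', h'⟩ => ⟨max m m', fun s hs =>
    ⟨h s (hs.mono (le_max_left _ _)), h' s (hs.mono (le_max_right _ _))⟩⟩

theorem evb_iff {B : ℕ → ℝ} {μ : ℝ} {P : Tr n → Prop} :
    (∀ᶠ t in Fb n B μ, P t) ↔ ∃ m : ℕ, ∀ t, Ab B μ m t → P t := Iff.rfl

theorem Bo.mat2 {B : ℕ → ℝ} {μ : ℝ} (i j : Fin n) :
    Bo (Fb n B μ) (fun (t : Tr n) x => t.s x i j) :=
  ⟨fun t => t.hs i j, fun k => ⟨_, evb_iff.2 ⟨k, fun _ h => cb_cl (h.1 i j)⟩⟩⟩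

theorem Bo.ef {B : ℕ → ℝ} {μ : ℝ} : Bo (Fb n B μ) (fun t : Tr n => t.f) :=
  ⟨fun t => t.hf, fun k => ⟨_, evb_iff.2 ⟨k, fun _ h => cb_cl h.2.1⟩⟩⟩

theorem Bo.eg {B : ℕ → ℝ} {μ : ℝ} : Bo (Fb n B μ) (fun t : Tr n => t.g) :=
  ⟨fun t => t.hg, fun k => ⟨_, evb_iff.2 ⟨k, fun _ h => cb_cl h.2.2.1⟩⟩⟩

/-- The reciprocal of `s(∇ρ, ∇ρ)` near the boundary. -/
theorem setupE {ρ : V n → ℝ} (hD : Dom ρ) (B : ℕ → ℝ) {μ : ℝ} (hμ : 0 < μ) :
    Bo (Fb n B μ) (fun _ => ρ) ∧ ∃ ν : Tr n → V n → ℝ,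
    Bo (Fb n B μ) ν ∧ ∃ r > 0, ∀ᶠ t in Fb n B μ, ∀ x, |ρ x| < r → ν t x * gr t.s ρ ρ x = 1 := by
  have hcs : HasCompactSupport (fun x => ρ x - (-1)) := by
    refine HasCompactSupport.of_support_subset_isCompact core_cpt ?_
    intro x hx
    by_contra h
    exact hx (by simp [hD.off x h])
  have hρ : Bo (Fb n B μ) (fun _ => ρ) := Bo.fix hD.sm hcs
  have hN1 : ContDiff ℝ ∞ (fun x => ∑ i, pd i ρ x ^ 2) :=
    ContDiff.sum fun i _ => (cd_pd hD.sm i).pow 2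
  obtain ⟨m', hm', hm'2⟩ := core_cpt.exists_forall_le'
    (f := fun x => |ρ x| + ∑ i, pd i ρ x ^ 2)
    (a := 0) (hD.sm.continuous.abs.add hN1.continuous).continuousOn (by
      intro x _
      by_contra hx
      have h1 : 0 ≤ |ρ x| := abs_nonneg _
      have h2 : 0 ≤ ∑ i, pd i ρ x ^ 2 := Finset.sum_nonneg fun i _ => sq_nonneg _
      have h3 : |ρ x| = 0 := by linarith
      have h4 : ∑ i, pd i ρ x ^ 2 = 0 := by linarith
      have h5 := (Finset.sum_eq_zero_iff_of_nonneg (fun i _ => sq_nonneg _)).1 h4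
      refine hD.nz x (abs_eq_zero.1 h3) ?_
      refine ContinuousLinearMap.ext fun v => ?_
      have hv : v = ∑ i, v i • (Pi.single i (1 : ℝ) : V n) := by
        funext j
        simp [Finset.sum_apply, Pi.single_apply]
      rw [hv, map_sum]
      refine Finset.sum_eq_zero fun i hi => ?_
      rw [map_smul]
      have : fderiv ℝ ρ x (Pi.single i 1) = 0 := pow_eq_zero_iff two_ne_zero |>.1 (h5 i hi)
      rw [this, smul_zero])
  set r₀ : ℝ := min 1 (m' / 2) with hr₀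
  have hr₀0 : 0 < r₀ := by positivity
  have hlow : ∀ x, |ρ x| < r₀ → m' / 2 ≤ ∑ i, pd i ρ x ^ 2 := by
    intro x hx
    have hx1 : x ∈ core n := by
      by_contra h
      rw [hD.off x h] at hx
      have : r₀ ≤ 1 := min_le_left _ _
      rw [abs_neg, abs_one] at hx
      linarith
    have h1 := hm'2 x hx1
    have h2 : r₀ ≤ m' / 2 := min_le_right _ _
    linarith
  have hS : ∀ i j, Bo (Fb n B μ) (fun (t : Tr n) x => t.s x i j) := Bo.mat2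
  have hpos : 0 < μ * (m' / 2) := by positivity
  set ν : Tr n → V n → ℝ := fun t x => rcp (μ * (m' / 2)) (gr t.s ρ ρ x) with hν'
  have hν : Bo (Fb n B μ) ν := (Bo.grr (S := fun t : Tr n => t.s) hS hρ hρ).smooth
    (rcp_smooth hpos)
  refine ⟨hρ, ν, hν, r₀, hr₀0, evb_iff.2 ⟨0, fun t ht x hx => ?_⟩⟩
  refine rcp_mul hpos ?_
  have h1 : μ * ∑ i, pd i ρ x ^ 2 ≤ gr t.s ρ ρ x := ht.2.2.2 x fun i => pd i ρ x
  exact (mul_le_mul_of_nonneg_left (hlow x hx) hμ.le).trans h1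

variable {ρ : V n → ℝ} {ν : Tr n → V n → ℝ} {B : ℕ → ℝ} {μ : ℝ}

theorem sq_bo (hρ : Bo (Fb n B μ) (fun _ => ρ)) (hν : Bo (Fb n B μ) ν) (j : ℕ) :
    Bo (Fb n B μ) (RC.sq ρ ν j) := by
  have hS : ∀ i j, Bo (Fb n B μ) (fun (t : Tr n) x => t.s x i j) := Bo.mat2
  induction j with
  | zero =>
    exact Bo.add Bo.eg (Bo.drr (S := fun t : Tr n => t.s) hS (Bo.mul hρ (Bo.mul hν Bo.ef)))
  | succ j ih =>
    have hc : Bo (Fb n B μ) (dn ν j (RC.sq ρ ν j)) := Bo.mul (Bo.const _) (Bo.mul hν ih)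
    exact Bo.add (Bo.mul (Bo.const _) (Bo.mul hc (Bo.drr (S := fun t : Tr n => t.s) hS hρ)))
      (Bo.add (Bo.mul (Bo.const _) (Bo.add (Bo.grr (S := fun t : Tr n => t.s) hS hρ hc)
        (Bo.grr (S := fun t : Tr n => t.s) hS hc hρ)))
        (Bo.mul hρ (Bo.drr (S := fun t : Tr n => t.s) hS hc)))

theorem cq_bo (hρ : Bo (Fb n B μ) (fun _ => ρ)) (hν : Bo (Fb n B μ) ν) (j : ℕ) :
    Bo (Fb n B μ) (cq ρ ν j) := by
  match j with
  | 0 => exact So.zero.toBo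
  | 1 => exact Bo.mul hν Bo.ef
  | j + 2 => exact Bo.mul (Bo.const _) (Bo.mul hν (sq_bo hρ hν j))

/-- **Row E_REC.** -/
theorem rec_ : E.RowREC := by
  intro n ρ hD k B μ hμ
  obtain ⟨hρ, ν, hν, r₀, hr₀0, hN⟩ := setupE hD B hμ
  have h0 : ∀ i : ℕ, ∃ C, ∀ᶠ t in Fb n B μ, Cl k C (cq ρ ν i t) := fun i => (cq_bo hρ hν i).bd k
  choose C hC using h0
  have hsm : ∀ᶠ t in Fb n B μ, ∀ i : Fin (k + 1), Cl k (C i) (cq ρ ν i t) := by
    rw [eventually_all]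
    exact fun i => hC i
  obtain ⟨K, hK⟩ := evb_iff.1 (hN.and hsm)
  refine ⟨K, ∑ i ∈ Finset.range (k + 1), |C i|, fun s hs _ hcl hco f g hf hg hf1 hg1 => ?_⟩
  obtain ⟨h1, h2⟩ := hK ⟨s, f, g, hs, hf, hg⟩ ⟨hcl, hf1, hg1, hco⟩
  set t : Tr n := ⟨s, f, g, hs, hf, hg⟩ with ht
  refine ⟨fun i => cq ρ ν i t, fun i => (cq_bo hρ hν i).sm t,
    fun i hi => cl_le (h2 ⟨i, by omega⟩) ((le_abs_self _).trans
      (Finset.single_le_sum (f := fun i => |C i|) (fun _ _ => abs_nonneg _)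
        (Finset.mem_range.2 (by omega)))), fun x => rfl, ?_, ?_⟩
  · intro x hx
    have h3 : ν t x * gr s ρ ρ x = 1 := h1 x (by rw [hx, abs_zero]; exact hr₀0)
    show gr s ρ ρ x * (ν t x * f x) = f x
    linear_combination (f x) * h3
  · intro M
    exact ⟨r₀, hr₀0, RC.sq ρ ν M t, (sq_bo hρ hν M).sm t, fun x hx =>
      cq_sum hD.sm (fun j t => (cq_bo hρ hν j).sm t) (h1 x hx) M⟩

end Vale.Agent.P088.H833.RE
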